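import Vale.Agent.Lib.P328.RC.Defs

/-!
# P328, coin layer: the explicit step function of the sampler
-/

namespace P328Coin

/-- run the step function along a sequence of seeds -/
def run {Ω S : Type*} (step : Ω → S → Ω) : (t : ℕ) → (Fin t → S) → Ω → Ω
  | 0, _, X => X
  | t + 1, σ, X => run step t (fun k => σ k.succ) (step X (σ 0))

variable {m n : ℕ}

/-- number of matrices with the margins of `X` which agree with `X` outside the block with rows
`i1, i2` and columns `j1, j2` -/
def blockLen (X : Fin m → Fin n → ℕ) (i1 i2 : Fin m) (j1 j2 : Fin n) : ℕ :=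
  min (X i1 j1) (X i2 j2) + min (X i1 j2) (X i2 j1) + 1

/-- the `v`-th of these matrices: the diagonal entries of the block are lowered by their minimum
and raised by `v`, the antidiagonal entries are changed by the opposite amount -/
def blockFun (X : Fin m → Fin n → ℕ) (i1 i2 : Fin m) (j1 j2 : Fin n) (v : ℕ) :
    Fin m → Fin n → ℕ := fun i j =>
  if (i = i1 ∧ j = j1) ∨ (i = i2 ∧ j = j2) then X i j - min (X i1 j1) (X i2 j2) + v
  else if (i = i1 ∧ j = j2) ∨ (i = i2 ∧ j = j1) then X i j + min (X i1 j1) (X i2 j2) - v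
  else X i j

/-- a seed: two candidate row indices below `A`, two candidate column indices below `A'` and an
integer below `D` -/
abbrev Seed (A A' D : ℕ) : Type := (Fin A × Fin A) × (Fin A' × Fin A') × Fin D

/-- one step of the sampler: if the candidate indices are `i1 < i2 < m` and `j1 < j2 < n`, replace
`X` by the matrix number `u mod blockLen` of the block; otherwise do nothing -/
def stepFun {A A' D : ℕ} (X : Fin m → Fin n → ℕ) (s : Seed A A' D) : Fin m → Fin n → ℕ :=
  if h : ((s.1.1 : ℕ) < s.1.2 ∧ (s.1.2 : ℕ) < m) ∧ ((s.2.1.1 : ℕ) < s.2.1.2 ∧ (s.2.1.2 : ℕ) < n) then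
    blockFun X ⟨s.1.1, h.1.1.trans h.1.2⟩ ⟨s.1.2, h.1.2⟩ ⟨s.2.1.1, h.2.1.trans h.2.2⟩ ⟨s.2.1.2, h.2.2⟩
      ((s.2.2 : ℕ) % blockLen X ⟨s.1.1, h.1.1.trans h.1.2⟩ ⟨s.1.2, h.1.2⟩
        ⟨s.2.1.1, h.2.1.trans h.2.2⟩ ⟨s.2.1.2, h.2.2⟩)
  else X

end P328Coin
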