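import Vale.Agent.Lib.P328.RC.Mixing
import Vale.Agent.Lib.P328.Coin.Step

/-!
# P328, coin layer: abstract facts on chains driven by uniformly random seeds
-/

namespace P328Coin

open Finset

variable {Ω S : Type*}

variable [Fintype Ω] [DecidableEq Ω] [Fintype S]

/-- transition matrix of one step with a uniformly random seed -/
noncomputable def kern (step : Ω → S → Ω) : Matrix Ω Ω ℝ := fun X Y =>
  ((univ.filter fun s => step X s = Y).card : ℝ) / (Fintype.card S : ℝ)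

theorem kern_nonneg (step : Ω → S → Ω) (X Y : Ω) : 0 ≤ kern step X Y := by
  unfold kern
  positivity

theorem kern_mul (step : Ω → S → Ω) (X : Ω) (f : Ω → ℝ) :
    ∑ Y, kern step X Y * f Y = (∑ s, f (step X s)) / (Fintype.card S : ℝ) := by
  unfold kern
  simp only [div_mul_eq_mul_div]
  rw [← Finset.sum_div]
  congr 1
  have h : ∀ Y, ((univ.filter fun s => step X s = Y).card : ℝ) * f Y
      = ∑ s, if step X s = Y then f (step X s) else 0 := by
    intro Y
    rw [← Finset.sum_filter, Finset.sum_congr rfl (g := fun _ => f Y)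
      (fun s hs => by rw [(Finset.mem_filter.1 hs).2]), Finset.sum_const, nsmul_eq_mul]
  simp only [h]
  rw [Finset.sum_comm]
  refine Finset.sum_congr rfl (fun s _ => ?_)
  simp

theorem kern_row [Nonempty S] (step : Ω → S → Ω) (X : Ω) : ∑ Y, kern step X Y = 1 := by
  have h := kern_mul step X (fun _ => 1)
  simp only [mul_one, Finset.sum_const, Finset.card_univ, nsmul_eq_mul] at h
  rw [h]
  have : (Fintype.card S : ℝ) ≠ 0 := by
    have : 0 < Fintype.card S := Fintype.card_pos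
    positivity
  field_simp

/-- the law of `run` under uniformly random seeds is the matrix power -/
theorem card_run (step : Ω → S → Ω) (t : ℕ) : ∀ X Y : Ω,
    ((univ.filter fun σ : Fin t → S => run step t σ X = Y).card : ℝ) / (Fintype.card S : ℝ) ^ t
      = (kern step ^ t) X Y := by
  induction t with
  | zero =>
    intro X Y
    simp only [run, pow_zero, div_one, Matrix.one_apply]
    by_cases h : X = Y
    · simp [h]
    · simp [h]
  | succ t ih =>
    intro X Y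
    rw [pow_succ' (kern step) t, Matrix.mul_apply, kern_mul step X (fun Z => (kern step ^ t) Z Y)]
    simp only [← ih]
    rw [← Finset.sum_div, div_div, ← pow_succ]
    congr 1
    rw [← Nat.cast_sum]
    congr 1
    rw [Finset.card_filter, ← (Fin.consEquiv (fun _ => S)).sum_comp, Fintype.sum_prod_type]
    refine Finset.sum_congr rfl (fun s _ => ?_)
    rw [Finset.card_filter]
    refine Finset.sum_congr rfl (fun σ _ => ?_)
    simp [run, Fin.consEquiv]


omit [Fintype S] in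
/-- powers of a stochastic matrix are stochastic -/
theorem pow_stoch (K : Matrix Ω Ω ℝ) (h0 : ∀ X Y, 0 ≤ K X Y) (h1 : ∀ X, ∑ Y, K X Y = 1) (t : ℕ) :
    (∀ X Y, 0 ≤ (K ^ t) X Y) ∧ ∀ X, ∑ Y, (K ^ t) X Y = 1 := by
  induction t with
  | zero =>
    refine ⟨fun X Y => ?_, fun X => ?_⟩
    · rw [pow_zero, Matrix.one_apply]
      split_ifs <;> norm_num
    · simp [Matrix.one_apply]
  | succ t ih =>
    refine ⟨fun X Y => ?_, fun X => ?_⟩
    · rw [pow_succ, Matrix.mul_apply]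
      exact Finset.sum_nonneg fun Z _ => mul_nonneg (ih.1 X Z) (h0 Z Y)
    · simp only [pow_succ, Matrix.mul_apply]
      rw [Finset.sum_comm]
      simp only [← Finset.mul_sum, h1, mul_one]
      exact ih.2 X

omit [Fintype S] in
/-- two stochastic matrices whose rows are `δ`-close in `ℓ¹` have `t δ`-close `t`-th powers -/
theorem pow_perturb (K P : Matrix Ω Ω ℝ) (hK0 : ∀ X Y, 0 ≤ K X Y) (hK1 : ∀ X, ∑ Y, K X Y = 1)
    (hP0 : ∀ X Y, 0 ≤ P X Y) (hP1 : ∀ X, ∑ Y, P X Y = 1) (δ : ℝ)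
    (hδ : ∀ X, ∑ Y, |K X Y - P X Y| ≤ δ) (t : ℕ) (X : Ω) :
    ∑ Y, |(K ^ t) X Y - (P ^ t) X Y| ≤ t * δ := by
  induction t with
  | zero => simp
  | succ t ih =>
    have hs := pow_stoch K hK0 hK1 t
    have h1 : ∀ Y, |(K ^ (t + 1)) X Y - (P ^ (t + 1)) X Y|
        ≤ ∑ Z, (K ^ t) X Z * |K Z Y - P Z Y| + ∑ Z, |(K ^ t) X Z - (P ^ t) X Z| * P Z Y := by
      intro Y
      rw [pow_succ, pow_succ, Matrix.mul_apply, Matrix.mul_apply, ← Finset.sum_sub_distrib,
        ← Finset.sum_add_distrib]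
      refine (Finset.abs_sum_le_sum_abs _ _).trans (Finset.sum_le_sum fun Z _ => ?_)
      have e : (K ^ t) X Z * K Z Y - (P ^ t) X Z * P Z Y
          = (K ^ t) X Z * (K Z Y - P Z Y) + ((K ^ t) X Z - (P ^ t) X Z) * P Z Y := by ring
      rw [e]
      refine (abs_add_le _ _).trans ?_
      rw [abs_mul, abs_mul, abs_of_nonneg (hs.1 X Z), abs_of_nonneg (hP0 Z Y)]
    refine (Finset.sum_le_sum fun Y _ => h1 Y).trans ?_
    rw [Finset.sum_add_distrib, Finset.sum_comm, Finset.sum_comm (s := univ) (t := univ)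
      (f := fun Y Z => |(K ^ t) X Z - (P ^ t) X Z| * P Z Y)]
    simp only [← Finset.mul_sum, hP1, mul_one]
    have h2 : ∑ Z, (K ^ t) X Z * ∑ Y, |K Z Y - P Z Y| ≤ ∑ Z, (K ^ t) X Z * δ :=
      Finset.sum_le_sum fun Z _ => mul_le_mul_of_nonneg_left (hδ Z) (hs.1 X Z)
    rw [← Finset.sum_mul, hs.2 X, one_mul] at h2
    push_cast
    linarith

omit [Fintype S] in
/-- an `ℓ¹` bound from bounds against test functions -/
theorem sum_abs_le_of_test (d : Ω → ℝ) (δ : ℝ)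
    (h : ∀ f : Ω → ℝ, (∀ Y, |f Y| ≤ 1) → ∑ Y, d Y * f Y ≤ δ) : ∑ Y, |d Y| ≤ δ := by
  have := h (fun Y => if 0 ≤ d Y then 1 else -1) (fun Y => by split_ifs <;> simp)
  refine le_trans (le_of_eq (Finset.sum_congr rfl fun Y _ => ?_)) this
  split_ifs with h0
  · rw [abs_of_nonneg h0, mul_one]
  · rw [abs_of_neg (not_le.1 h0)]; ring

/-- the lazy version of a chain -/
noncomputable def lazy (p : ℝ) (H : Matrix Ω Ω ℝ) : Matrix Ω Ω ℝ := (1 - p) • 1 + p • H

omit [Fintype S] in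
theorem lazy_mul (p : ℝ) (H : Matrix Ω Ω ℝ) (X : Ω) (f : Ω → ℝ) :
    ∑ Y, lazy p H X Y * f Y = (1 - p) * f X + p * ∑ Y, H X Y * f Y := by
  unfold lazy
  simp only [Matrix.add_apply, Matrix.smul_apply, Matrix.one_apply, smul_eq_mul, add_mul,
    Finset.sum_add_distrib, Finset.mul_sum]
  congr 1
  · simp
  · exact Finset.sum_congr rfl fun Y _ => by ring

omit [Fintype S] in
theorem lazy_contr (p : ℝ) (hp0 : 0 ≤ p) (hp1 : p ≤ 1) (H : Matrix Ω Ω ℝ) (θ θ' : ℝ)
    (hθ : 1 - p + p * θ ≤ θ') (f : Ω → ℝ)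
    (hH : ∑ X, (∑ Y, H X Y * f Y) ^ 2 ≤ θ * ∑ X, f X ^ 2) :
    ∑ X, (∑ Y, lazy p H X Y * f Y) ^ 2 ≤ θ' * ∑ X, f X ^ 2 := by
  have h1 : ∀ X, (∑ Y, lazy p H X Y * f Y) ^ 2
      ≤ (1 - p) * f X ^ 2 + p * (∑ Y, H X Y * f Y) ^ 2 := by
    intro X
    rw [lazy_mul]
    nlinarith [mul_nonneg (mul_nonneg hp0 (sub_nonneg.2 hp1)) (sq_nonneg (f X - ∑ Y, H X Y * f Y))]
  refine (Finset.sum_le_sum fun X _ => h1 X).trans ?_
  rw [Finset.sum_add_distrib, ← Finset.mul_sum, ← Finset.mul_sum]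
  have h2 : 0 ≤ ∑ X, f X ^ 2 := Finset.sum_nonneg fun _ _ => sq_nonneg _
  nlinarith [mul_le_mul_of_nonneg_left hH hp0, mul_le_mul_of_nonneg_right hθ h2]

/-- **Abstract sampler theorem.**  `H` is a symmetric stochastic matrix contracting mean zero
functions by `1 - 1/M`; the chain driven by `step` is `δ`-close (rows in `ℓ¹`) to the lazy chain
`(1-p) + p H`, and `M ≤ p M'`.  Then the output of `run` after `t ≥ M' (k + 2 j)` steps is within
`2^{-(j+1)} + t δ / 2` of uniform. -/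
theorem sampler_abs [Nonempty Ω] [Nonempty S] (step : Ω → S → Ω) (H : Matrix Ω Ω ℝ)
    (hH0 : ∀ X Y, 0 ≤ H X Y) (hsymm : ∀ X Y, H X Y = H Y X) (hrow : ∀ X, ∑ Y, H X Y = 1)
    (M : ℕ) (hM : 0 < M)
    (hcontr : ∀ f : Ω → ℝ, ∑ X, f X = 0 →
      ∑ X, (∑ Y, H X Y * f Y) ^ 2 ≤ (1 - 1 / (M : ℝ)) * ∑ X, f X ^ 2)
    (p : ℝ) (hp0 : 0 ≤ p) (hp1 : p ≤ 1) (M' : ℕ) (hM' : 0 < M') (hpM : (M : ℝ) ≤ p * M')
    (δ : ℝ) (hδ : ∀ X, ∑ Y, |kern step X Y - lazy p H X Y| ≤ δ)
    (k j : ℕ) (hN : Fintype.card Ω ≤ 2 ^ k) (t : ℕ) (ht : M' * (k + 2 * j) ≤ t) (X : Ω) :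
    (1 / 2) * ∑ Y, |((univ.filter fun σ : Fin t → S => run step t σ X = Y).card : ℝ)
        / (Fintype.card S : ℝ) ^ t - 1 / (Fintype.card Ω : ℝ)| ≤ (1 / 2) ^ (j + 1) + t * δ / 2 := by
  have hL0 : ∀ X Y, 0 ≤ lazy p H X Y := by
    intro X Y
    unfold lazy
    simp only [Matrix.add_apply, Matrix.smul_apply, Matrix.one_apply, smul_eq_mul]
    have := hH0 X Y
    have h1 : 0 ≤ 1 - p := sub_nonneg.2 hp1
    split_ifs <;> positivity
  have hLs : ∀ X Y, lazy p H X Y = lazy p H Y X := by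
    intro X Y
    unfold lazy
    simp only [Matrix.add_apply, Matrix.smul_apply, Matrix.one_apply, smul_eq_mul, hsymm X Y,
      eq_comm]
  have hL1 : ∀ X, ∑ Y, lazy p H X Y = 1 := by
    intro X
    have := lazy_mul p H X (fun _ => 1)
    simp only [mul_one] at this
    rw [this, hrow]; ring
  have hMR : (0 : ℝ) < M := by exact_mod_cast hM
  have hMR' : (0 : ℝ) < M' := by exact_mod_cast hM'
  have hθ : 1 - p + p * (1 - 1 / (M : ℝ)) ≤ 1 - 1 / (M' : ℝ) := by
    have : 1 / (M' : ℝ) ≤ p / M := by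
      rw [div_le_div_iff₀ hMR' hMR]; linarith
    have e : p * (1 - 1 / (M : ℝ)) = p - p / M := by ring
    rw [e]; linarith
  have hLc : ∀ f : Ω → ℝ, ∑ X, f X = 0 →
      ∑ X, (∑ Y, lazy p H X Y * f Y) ^ 2 ≤ (1 - 1 / (M' : ℝ)) * ∑ X, f X ^ 2 :=
    fun f hf => lazy_contr p hp0 hp1 H _ _ hθ f (hcontr f hf)
  have h1 := P328RC.tv_bound_eps (lazy p H) hLs hL1 M' hM' hLc k j hN t ht X
  have h2 := pow_perturb (kern step) (lazy p H) (kern_nonneg step) (kern_row step) hL0 hL1 δ hδ t X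
  simp only [card_run]
  have h3 : ∑ Y, |(kern step ^ t) X Y - 1 / (Fintype.card Ω : ℝ)|
      ≤ ∑ Y, |(kern step ^ t) X Y - (lazy p H ^ t) X Y|
        + ∑ Y, |(lazy p H ^ t) X Y - 1 / (Fintype.card Ω : ℝ)| := by
    rw [← Finset.sum_add_distrib]
    exact Finset.sum_le_sum fun Y _ => abs_sub_le _ _ _
  linarith

end P328Coin
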