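import Vale.Agent.Lib.P328.Coin.Step

/-!
# P328, coin layer: the tables which agree with a given table outside a block
-/

namespace P328Coin

open P335 P328RC Finset

theorem sum_split {α : Type*} [Fintype α] [DecidableEq α] {x y : α} (hxy : x ≠ y) (f : α → ℕ) :
    ∑ z, f z = f x + f y + ∑ z ∈ (univ.erase x).erase y, f z := by
  rw [← Finset.add_sum_erase univ f (mem_univ x),
    ← Finset.add_sum_erase (univ.erase x) f (Finset.mem_erase.2 ⟨hxy.symm, mem_univ y⟩), add_assoc]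

theorem sum_rest {α : Type*} [Fintype α] [DecidableEq α] {x y : α} (f g : α → ℕ)
    (hr : ∀ z, z ≠ x → z ≠ y → g z = f z) :
    ∑ z ∈ (univ.erase x).erase y, g z = ∑ z ∈ (univ.erase x).erase y, f z := by
  refine Finset.sum_congr rfl (fun z hz => ?_)
  rw [Finset.mem_erase, Finset.mem_erase] at hz
  exact hr z hz.2.1 hz.1

theorem sum_two_eq {α : Type*} [Fintype α] [DecidableEq α] {x y : α} (hxy : x ≠ y) (f g : α → ℕ)
    (h : g x + g y = f x + f y) (hr : ∀ z, z ≠ x → z ≠ y → g z = f z) : ∑ z, g z = ∑ z, f z := by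
  rw [sum_split hxy f, sum_split hxy g, sum_rest f g hr, h]

theorem two_of_sum {α : Type*} [Fintype α] [DecidableEq α] {x y : α} (hxy : x ≠ y) (f g : α → ℕ)
    (h : ∑ z, g z = ∑ z, f z) (hr : ∀ z, z ≠ x → z ≠ y → g z = f z) : g x + g y = f x + f y := by
  rw [sum_split hxy f, sum_split hxy g, sum_rest f g hr] at h
  omega

variable {m n : ℕ}

section entries
variable (X : Fin m → Fin n → ℕ) {i1 i2 : Fin m} {j1 j2 : Fin n} (v : ℕ)

theorem blockFun_11 : blockFun X i1 i2 j1 j2 v i1 j1 = X i1 j1 - min (X i1 j1) (X i2 j2) + v := by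
  simp [blockFun]

theorem blockFun_22 : blockFun X i1 i2 j1 j2 v i2 j2 = X i2 j2 - min (X i1 j1) (X i2 j2) + v := by
  simp [blockFun]

theorem blockFun_12 (hj : j1 ≠ j2) (hi : i1 ≠ i2) :
    blockFun X i1 i2 j1 j2 v i1 j2 = X i1 j2 + min (X i1 j1) (X i2 j2) - v := by
  simp [blockFun, hj.symm, hi]

theorem blockFun_21 (hj : j1 ≠ j2) (hi : i1 ≠ i2) :
    blockFun X i1 i2 j1 j2 v i2 j1 = X i2 j1 + min (X i1 j1) (X i2 j2) - v := by
  simp [blockFun, hj, hi.symm]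

theorem blockFun_off {i : Fin m} {j : Fin n} (h : ¬((i = i1 ∨ i = i2) ∧ (j = j1 ∨ j = j2))) :
    blockFun X i1 i2 j1 j2 v i j = X i j := by
  unfold blockFun
  rw [if_neg, if_neg]
  · rintro (⟨h1, h2⟩ | ⟨h1, h2⟩)
    · exact h ⟨Or.inl h1, Or.inr h2⟩
    · exact h ⟨Or.inr h1, Or.inl h2⟩
  · rintro (⟨h1, h2⟩ | ⟨h1, h2⟩)
    · exact h ⟨Or.inl h1, Or.inl h2⟩
    · exact h ⟨Or.inr h1, Or.inr h2⟩

end entries

variable {r : Fin m → ℕ} {c : Fin n → ℕ}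

theorem blockFun_mem (X : Tab r c) {i1 i2 : Fin m} (hi : i1 ≠ i2) {j1 j2 : Fin n} (hj : j1 ≠ j2)
    {v : ℕ} (hv : v < blockLen X.1 i1 i2 j1 j2) :
    (∀ i, ∑ j, blockFun X.1 i1 i2 j1 j2 v i j = r i) ∧
      (∀ j, ∑ i, blockFun X.1 i1 i2 j1 j2 v i j = c j) := by
  unfold blockLen at hv
  refine ⟨fun i => ?_, fun j => ?_⟩
  · rw [← X.2.1 i]
    by_cases h1 : i = i1
    · subst h1
      refine sum_two_eq hj _ _ ?_ (fun z hz1 hz2 => blockFun_off _ _ (fun h => h.2.elim hz1 hz2))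
      rw [blockFun_11, blockFun_12 _ _ hj hi]
      omega
    · by_cases h2 : i = i2
      · subst h2
        refine sum_two_eq hj _ _ ?_ (fun z hz1 hz2 => blockFun_off _ _ (fun h => h.2.elim hz1 hz2))
        rw [blockFun_22, blockFun_21 _ _ hj hi]
        omega
      · exact Finset.sum_congr rfl (fun z _ => blockFun_off _ _ (fun h => h.1.elim h1 h2))
  · rw [← X.2.2 j]
    by_cases h1 : j = j1
    · subst h1
      refine sum_two_eq hi (fun i => X.1 i j) _ ?_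
        (fun z hz1 hz2 => blockFun_off _ _ (fun h => h.1.elim hz1 hz2))
      rw [blockFun_11, blockFun_21 _ _ hj hi]
      omega
    · by_cases h2 : j = j2
      · subst h2
        refine sum_two_eq hi (fun i => X.1 i j) _ ?_
          (fun z hz1 hz2 => blockFun_off _ _ (fun h => h.1.elim hz1 hz2))
        rw [blockFun_22, blockFun_12 _ _ hj hi]
        omega
      · exact Finset.sum_congr rfl (fun z _ => blockFun_off _ _ (fun h => h.2.elim h1 h2))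

/-- `blockFun` as a map of tables (junk value `X` for bad arguments) -/
def blkT (X : Tab r c) (i1 i2 : Fin m) (j1 j2 : Fin n) (v : ℕ) : Tab r c :=
  if h : i1 ≠ i2 ∧ j1 ≠ j2 ∧ v < blockLen X.1 i1 i2 j1 j2 then
    ⟨blockFun X.1 i1 i2 j1 j2 v, blockFun_mem X h.1 h.2.1 h.2.2⟩
  else X

theorem blkT_val (X : Tab r c) {i1 i2 : Fin m} (hi : i1 ≠ i2) {j1 j2 : Fin n} (hj : j1 ≠ j2)
    {v : ℕ} (hv : v < blockLen X.1 i1 i2 j1 j2) :
    (blkT X i1 i2 j1 j2 v).1 = blockFun X.1 i1 i2 j1 j2 v := by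
  have h : blkT X i1 i2 j1 j2 v = ⟨blockFun X.1 i1 i2 j1 j2 v, blockFun_mem X hi hj hv⟩ :=
    dif_pos ⟨hi, hj, hv⟩
  rw [h]

/-- the class of `X` under `RX b b'` is parametrised by `range blockLen` -/
theorem sum_cls_block (X : Tab r c) (b : Fin m × Fin m) (b' : Fin n × Fin n) (hb : b.1 ≠ b.2)
    (hb' : b'.1 ≠ b'.2) (f : Tab r c → ℝ) :
    ∑ Y ∈ cls (RX b b') X, f Y
      = ∑ v ∈ range (blockLen X.1 b.1 b.2 b'.1 b'.2), f (blkT X b.1 b.2 b'.1 b'.2 v) := by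
  have key : ∀ Y ∈ cls (RX b b') X,
      Y.1 b.1 b'.1 + Y.1 b.1 b'.2 = X.1 b.1 b'.1 + X.1 b.1 b'.2 ∧
      Y.1 b.2 b'.1 + Y.1 b.2 b'.2 = X.1 b.2 b'.1 + X.1 b.2 b'.2 ∧
      Y.1 b.1 b'.1 + Y.1 b.2 b'.1 = X.1 b.1 b'.1 + X.1 b.2 b'.1 := by
    intro Y hY
    rw [mem_cls] at hY
    refine ⟨?_, ?_, ?_⟩
    · exact two_of_sum hb' (X.1 b.1) (Y.1 b.1) ((Y.2.1 _).trans (X.2.1 _).symm)
        (fun z h1 h2 => (hY _ _ (fun h => h.2.elim h1 h2)).symm)
    · exact two_of_sum hb' (X.1 b.2) (Y.1 b.2) ((Y.2.1 _).trans (X.2.1 _).symm)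
        (fun z h1 h2 => (hY _ _ (fun h => h.2.elim h1 h2)).symm)
    · exact two_of_sum hb (fun i => X.1 i b'.1) (fun i => Y.1 i b'.1)
        ((Y.2.2 _).trans (X.2.2 _).symm)
        (fun z h1 h2 => (hY _ _ (fun h => h.1.elim h1 h2)).symm)
  have hi : ∀ Y ∈ cls (RX b b') X,
      Y.1 b.1 b'.1 - (X.1 b.1 b'.1 - min (X.1 b.1 b'.1) (X.1 b.2 b'.2))
        < blockLen X.1 b.1 b.2 b'.1 b'.2 := by
    intro Y hY
    obtain ⟨k1, k2, k3⟩ := key Y hY
    unfold blockLen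
    omega
  have hl : ∀ Y ∈ cls (RX b b') X, blkT X b.1 b.2 b'.1 b'.2
      (Y.1 b.1 b'.1 - (X.1 b.1 b'.1 - min (X.1 b.1 b'.1) (X.1 b.2 b'.2))) = Y := by
    intro Y hY
    obtain ⟨k1, k2, k3⟩ := key Y hY
    apply Tab.ext
    intro i j
    rw [blkT_val X hb hb' (hi Y hY)]
    rw [mem_cls] at hY
    by_cases h : (i = b.1 ∨ i = b.2) ∧ (j = b'.1 ∨ j = b'.2)
    · rcases h with ⟨h1 | h1, h2 | h2⟩ <;> subst h1 <;> subst h2
      · rw [blockFun_11]; omega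
      · rw [blockFun_12 _ _ hb' hb]; omega
      · rw [blockFun_21 _ _ hb' hb]; omega
      · rw [blockFun_22]; omega
    · rw [blockFun_off _ _ h]
      exact hY i j h
  refine Finset.sum_nbij'
    (fun Y => Y.1 b.1 b'.1 - (X.1 b.1 b'.1 - min (X.1 b.1 b'.1) (X.1 b.2 b'.2)))
    (fun v => blkT X b.1 b.2 b'.1 b'.2 v) ?_ ?_ hl ?_ ?_
  · intro Y hY
    exact Finset.mem_range.2 (hi Y hY)
  · intro v hv
    rw [Finset.mem_range] at hv
    rw [mem_cls]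
    intro i j h
    rw [blkT_val X hb hb' hv, blockFun_off _ _ h]
  · intro v hv
    rw [Finset.mem_range] at hv
    show (blkT X b.1 b.2 b'.1 b'.2 v).1 b.1 b'.1 - _ = v
    rw [blkT_val X hb hb' hv, blockFun_11]
    omega
  · intro Y hY
    rw [hl Y hY]

theorem card_cls_block (X : Tab r c) (b : Fin m × Fin m) (b' : Fin n × Fin n) (hb : b.1 ≠ b.2)
    (hb' : b'.1 ≠ b'.2) :
    ((cls (RX b b') X).card : ℝ) = (blockLen X.1 b.1 b.2 b'.1 b'.2 : ℝ) := by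
  have := sum_cls_block X b b' hb hb' (fun _ => 1)
  simpa using this

theorem avg_block (X : Tab r c) (b : Fin m × Fin m) (b' : Fin n × Fin n) (hb : b.1 ≠ b.2)
    (hb' : b'.1 ≠ b'.2) (f : Tab r c → ℝ) :
    avg (RX b b') f X = (∑ v ∈ range (blockLen X.1 b.1 b.2 b'.1 b'.2),
      f (blkT X b.1 b.2 b'.1 b'.2 v)) / (blockLen X.1 b.1 b.2 b'.1 b'.2 : ℝ) := by
  unfold avg
  rw [sum_cls_block X b b' hb hb', card_cls_block X b b' hb hb']

theorem blockLen_le (X : Tab r c) (i1 i2 : Fin m) {j1 j2 : Fin n} (hj : j1 ≠ j2) :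
    blockLen X.1 i1 i2 j1 j2 ≤ ∑ i, r i + 1 := by
  have h1 : X.1 i1 j1 + X.1 i1 j2 ≤ r i1 := by
    rw [← X.2.1 i1, sum_split hj]
    omega
  have h2 : r i1 ≤ ∑ i, r i :=
    Finset.single_le_sum (f := r) (fun _ _ => Nat.zero_le _) (mem_univ i1)
  unfold blockLen
  omega

end P328Coin
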