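import Mathlib

/-!
# P328, coin layer: a uniform integer below `D`, reduced modulo `L`, is almost uniform below `L`
-/

namespace P328Coin

open Finset

theorem sum_range_mod (g : ℕ → ℝ) (L ρ : ℕ) (hρ : ρ ≤ L) (q : ℕ) :
    ∑ u ∈ range (q * L + ρ), g (u % L) = q * ∑ v ∈ range L, g v + ∑ v ∈ range ρ, g v := by
  induction q with
  | zero =>
    simp only [zero_mul, zero_add, Nat.cast_zero]
    refine Finset.sum_congr rfl (fun u hu => ?_)
    rw [Nat.mod_eq_of_lt (lt_of_lt_of_le (Finset.mem_range.1 hu) hρ)]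
  | succ q ih =>
    have e : (q + 1) * L + ρ = L + (q * L + ρ) := by ring
    rw [e, Finset.sum_range_add]
    have h1 : ∑ x ∈ range L, g (x % L) = ∑ x ∈ range L, g x :=
      Finset.sum_congr rfl (fun u hu => by rw [Nat.mod_eq_of_lt (Finset.mem_range.1 hu)])
    have h2 : ∑ x ∈ range (q * L + ρ), g ((L + x) % L) = ∑ x ∈ range (q * L + ρ), g (x % L) :=
      Finset.sum_congr rfl (fun u _ => by rw [Nat.add_mod_left])
    rw [h1, h2, ih]
    push_cast
    ring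

theorem abs_sum_range_le (g : ℕ → ℝ) (hg : ∀ v, |g v| ≤ 1) (k : ℕ) :
    |∑ v ∈ range k, g v| ≤ k := by
  refine (Finset.abs_sum_le_sum_abs _ _).trans ?_
  refine (Finset.sum_le_sum (fun v _ => hg v)).trans ?_
  simp

/-- the mean of `g (u mod L)` over `u < D` differs from the mean of `g` over `[0, L)` by at most
`2 L / D` -/
theorem mod_uniform (g : ℕ → ℝ) (hg : ∀ v, |g v| ≤ 1) (L D : ℕ) (hL : 0 < L) (hD : 0 < D) :
    |(∑ u ∈ range D, g (u % L)) / (D : ℝ) - (∑ v ∈ range L, g v) / (L : ℝ)| ≤ 2 * L / D := by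
  have hLR : (0 : ℝ) < L := by exact_mod_cast hL
  have hDR : (0 : ℝ) < D := by exact_mod_cast hD
  have hρ : D % L ≤ L := (Nat.mod_lt D hL).le
  have hD' : D / L * L + D % L = D := Nat.div_add_mod' D L
  have h1 := sum_range_mod g L (D % L) hρ (D / L)
  rw [hD'] at h1
  have hDc : ((D / L : ℕ) : ℝ) * L + ((D % L : ℕ) : ℝ) = D := by exact_mod_cast hD'
  obtain ⟨S, hS⟩ : ∃ S : ℝ, S = ∑ v ∈ range L, g v := ⟨_, rfl⟩
  obtain ⟨S', hS'⟩ : ∃ S' : ℝ, S' = ∑ v ∈ range (D % L), g v := ⟨_, rfl⟩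
  have b1 : |S| ≤ L := by rw [hS]; exact abs_sum_range_le g hg L
  have b2 : |S'| ≤ ((D % L : ℕ) : ℝ) := by rw [hS']; exact abs_sum_range_le g hg _
  have hρR : ((D % L : ℕ) : ℝ) ≤ L := by exact_mod_cast hρ
  have hρ0 : (0 : ℝ) ≤ ((D % L : ℕ) : ℝ) := Nat.cast_nonneg _
  rw [h1, ← hS, ← hS']
  have e : (((D / L : ℕ) : ℝ) * S + S') / D - S / L
      = (L * S' - ((D % L : ℕ) : ℝ) * S) / (D * L) := by
    field_simp
    rw [← hDc]
    ring
  rw [e, abs_div, abs_of_pos (mul_pos hDR hLR), div_le_div_iff₀ (mul_pos hDR hLR) hDR]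
  have b3 : |(L : ℝ) * S' - ((D % L : ℕ) : ℝ) * S| ≤ L * L + L * L := by
    refine (abs_sub _ _).trans ?_
    rw [abs_mul, abs_mul, abs_of_pos hLR, abs_of_nonneg hρ0]
    have c1 : (L : ℝ) * |S'| ≤ L * L := mul_le_mul_of_nonneg_left (b2.trans hρR) hLR.le
    have c2 : ((D % L : ℕ) : ℝ) * |S| ≤ L * L := mul_le_mul hρR b1 (abs_nonneg _) hLR.le
    linarith
  calc |(L : ℝ) * S' - ((D % L : ℕ) : ℝ) * S| * D ≤ (L * L + L * L) * D :=
        mul_le_mul_of_nonneg_right b3 hDR.le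
    _ = 2 * L * (D * L) := by ring

end P328Coin
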