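import Vale.Agent.Lib.P328.Coin.Abs
import Vale.Agent.Lib.P328.Coin.Block
import Vale.Agent.Lib.P328.Coin.Mod
import Vale.Agent.Lib.P328.RC.HbMat

/-!
# P328, coin layer: the chain driven by `stepFun` is close to the lazy heat-bath chain
-/

namespace P328Coin

open P335 P328RC Finset

variable {m n : ℕ} {r : Fin m → ℕ} {c : Fin n → ℕ} {A A' D : ℕ}

theorem blockLen_pos (X : Fin m → Fin n → ℕ) (i1 i2 : Fin m) (j1 j2 : Fin n) :
    0 < blockLen X i1 i2 j1 j2 := by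
  unfold blockLen
  omega

theorem stepFun_invalid (X : Fin m → Fin n → ℕ) (s : Seed A A' D)
    (h : ¬(((s.1.1 : ℕ) < s.1.2 ∧ (s.1.2 : ℕ) < m) ∧ ((s.2.1.1 : ℕ) < s.2.1.2 ∧ (s.2.1.2 : ℕ) < n))) :
    stepFun X s = X := dif_neg h

theorem stepFun_valid (X : Fin m → Fin n → ℕ) (hmA : m ≤ A) (hnA : n ≤ A') (b : Fin m × Fin m)
    (b' : Fin n × Fin n) (hb : b.1 < b.2) (hb' : b'.1 < b'.2) (u : Fin D) :
    stepFun X ((Fin.castLE hmA b.1, Fin.castLE hmA b.2), (Fin.castLE hnA b'.1, Fin.castLE hnA b'.2), u)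
      = blockFun X b.1 b.2 b'.1 b'.2 ((u : ℕ) % blockLen X b.1 b.2 b'.1 b'.2) :=
  dif_pos (c := (((Fin.castLE hmA b.1 : Fin A) : ℕ) < (Fin.castLE hmA b.2 : Fin A) ∧
      ((Fin.castLE hmA b.2 : Fin A) : ℕ) < m) ∧
    (((Fin.castLE hnA b'.1 : Fin A') : ℕ) < (Fin.castLE hnA b'.2 : Fin A') ∧
      ((Fin.castLE hnA b'.2 : Fin A') : ℕ) < n)) ⟨⟨hb, b.2.2⟩, ⟨hb', b'.2.2⟩⟩

theorem stepFun_mem (X : Tab r c) (s : Seed A A' D) :
    (∀ i, ∑ j, stepFun X.1 s i j = r i) ∧ (∀ j, ∑ i, stepFun X.1 s i j = c j) := by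
  by_cases h : ((s.1.1 : ℕ) < s.1.2 ∧ (s.1.2 : ℕ) < m) ∧
      ((s.2.1.1 : ℕ) < s.2.1.2 ∧ (s.2.1.2 : ℕ) < n)
  · have e : stepFun X.1 s = blockFun X.1 ⟨s.1.1, h.1.1.trans h.1.2⟩ ⟨s.1.2, h.1.2⟩
        ⟨s.2.1.1, h.2.1.trans h.2.2⟩ ⟨s.2.1.2, h.2.2⟩
        ((s.2.2 : ℕ) % blockLen X.1 ⟨s.1.1, h.1.1.trans h.1.2⟩ ⟨s.1.2, h.1.2⟩
          ⟨s.2.1.1, h.2.1.trans h.2.2⟩ ⟨s.2.1.2, h.2.2⟩) := dif_pos h
    rw [e]
    refine blockFun_mem X ?_ ?_ (Nat.mod_lt _ (blockLen_pos _ _ _ _ _))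
    · intro hc
      have := congrArg Fin.val hc
      simp only at this
      omega
    · intro hc
      have := congrArg Fin.val hc
      simp only at this
      omega
  · rw [stepFun_invalid X.1 s h]
    exact X.2

/-- `stepFun` as a map of tables -/
def stepT (X : Tab r c) (s : Seed A A' D) : Tab r c := ⟨stepFun X.1 s, stepFun_mem X s⟩

theorem stepT_invalid (X : Tab r c) (s : Seed A A' D)
    (h : ¬(((s.1.1 : ℕ) < s.1.2 ∧ (s.1.2 : ℕ) < m) ∧ ((s.2.1.1 : ℕ) < s.2.1.2 ∧ (s.2.1.2 : ℕ) < n))) :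
    stepT X s = X := Subtype.ext (stepFun_invalid X.1 s h)

theorem stepT_valid (X : Tab r c) (hmA : m ≤ A) (hnA : n ≤ A') (b : Fin m × Fin m)
    (b' : Fin n × Fin n) (hb : b.1 < b.2) (hb' : b'.1 < b'.2) (u : Fin D) :
    stepT X ((Fin.castLE hmA b.1, Fin.castLE hmA b.2), (Fin.castLE hnA b'.1, Fin.castLE hnA b'.2), u)
      = blkT X b.1 b.2 b'.1 b'.2 ((u : ℕ) % blockLen X.1 b.1 b.2 b'.1 b'.2) := by
  apply Subtype.ext
  rw [blkT_val X (ne_of_lt hb) (ne_of_lt hb') (Nat.mod_lt _ (blockLen_pos _ _ _ _ _))]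
  exact stepFun_valid X.1 hmA hnA b b' hb hb' u

theorem run_stepT (t : ℕ) : ∀ (σ : Fin t → Seed A A' D) (X : Tab r c),
    (run stepT t σ X).1 = run stepFun t σ X.1 := by
  induction t with
  | zero => intro σ X; rfl
  | succ t ih => intro σ X; exact ih _ _

/-- a sum over pairs of candidate indices of a function vanishing at the invalid pairs -/
theorem sum_pairs (hmA : m ≤ A) (h : Fin A × Fin A → ℝ)
    (h0 : ∀ a, ¬((a.1 : ℕ) < a.2 ∧ (a.2 : ℕ) < m) → h a = 0) :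
    ∑ a, h a = ∑ b ∈ pr (Fin m), h (Fin.castLE hmA b.1, Fin.castLE hmA b.2) := by
  have e : ∑ b ∈ pr (Fin m), h (Fin.castLE hmA b.1, Fin.castLE hmA b.2)
      = ∑ a ∈ (pr (Fin m)).map ((Fin.castLEEmb hmA).prodMap (Fin.castLEEmb hmA)), h a := by
    rw [Finset.sum_map]
    rfl
  rw [e]
  symm
  refine Finset.sum_subset (Finset.subset_univ _) (fun a _ ha => h0 a (fun hv => ha ?_))
  rw [Finset.mem_map]
  refine ⟨(⟨a.1, hv.1.trans hv.2⟩, ⟨a.2, hv.2⟩), mem_pr.2 hv.1, ?_⟩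
  rfl

/-- probability that the candidate indices are valid -/
noncomputable def pAcc (m n A A' : ℕ) : ℝ :=
  (((pr (Fin m)).card : ℝ) * ((pr (Fin n)).card : ℝ)) / ((A : ℝ) ^ 2 * (A' : ℝ) ^ 2)

theorem card_pr_le (hmA : m ≤ A) : ((pr (Fin m)).card : ℝ) ≤ (A : ℝ) ^ 2 := by
  have h1 : (pr (Fin m)).card ≤ m * m := by
    have := Finset.card_le_univ (pr (Fin m))
    simpa using this
  have h2 : m * m ≤ A ^ 2 := by nlinarith
  exact_mod_cast h1.trans h2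

theorem sum_seeds (hmA : m ≤ A) (hnA : n ≤ A') (X : Tab r c) (f : Tab r c → ℝ) :
    ∑ s : Seed A A' D, f (stepT X s) = (A : ℝ) ^ 2 * (A' : ℝ) ^ 2 * D * f X
      + ∑ b ∈ pr (Fin m), ∑ b' ∈ pr (Fin n),
        (∑ u ∈ range D, f (blkT X b.1 b.2 b'.1 b'.2 (u % blockLen X.1 b.1 b.2 b'.1 b'.2))
          - D * f X) := by
  obtain ⟨F, hF⟩ : ∃ F : Fin A × Fin A → Fin A' × Fin A' → ℝ,
      ∀ a a', F a a' = ∑ u : Fin D, f (stepT X (a, a', u)) - D * f X := ⟨_, fun _ _ => rfl⟩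
  have h1 : ∑ s : Seed A A' D, f (stepT X s) = ∑ a, ∑ a', (F a a' + D * f X) := by
    rw [Fintype.sum_prod_type]
    refine Finset.sum_congr rfl (fun a _ => ?_)
    rw [Fintype.sum_prod_type]
    refine Finset.sum_congr rfl (fun a' _ => ?_)
    rw [hF]
    ring
  have h2 : ∑ a : Fin A × Fin A, ∑ a' : Fin A' × Fin A', (F a a' + D * f X)
      = ∑ a, ∑ a', F a a' + (A : ℝ) ^ 2 * (A' : ℝ) ^ 2 * D * f X := by
    simp only [Finset.sum_add_distrib, Finset.sum_const, Finset.card_univ, Fintype.card_prod,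
      Fintype.card_fin, nsmul_eq_mul]
    push_cast
    ring
  have hz : ∀ a a', ¬((((a.1 : Fin A) : ℕ) < a.2 ∧ (a.2 : ℕ) < m) ∧
      (((a'.1 : Fin A') : ℕ) < a'.2 ∧ (a'.2 : ℕ) < n)) → F a a' = 0 := by
    intro a a' h
    rw [hF]
    have : ∀ u : Fin D, f (stepT X (a, a', u)) = f X := fun u => by rw [stepT_invalid X _ h]
    simp only [this, Finset.sum_const, Finset.card_univ, Fintype.card_fin, nsmul_eq_mul]
    ring
  have h3 : ∑ a, ∑ a', F a a' = ∑ b ∈ pr (Fin m), ∑ b' ∈ pr (Fin n),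
      F (Fin.castLE hmA b.1, Fin.castLE hmA b.2) (Fin.castLE hnA b'.1, Fin.castLE hnA b'.2) := by
    rw [sum_pairs hmA (fun a => ∑ a', F a a')
      (fun a ha => Finset.sum_eq_zero fun a' _ => hz a a' (fun h => ha h.1))]
    refine Finset.sum_congr rfl (fun b _ => ?_)
    exact sum_pairs hnA (fun a' => F _ a') (fun a' ha => hz _ a' (fun h => ha h.2))
  rw [h1, h2, h3, add_comm]
  congr 1
  refine Finset.sum_congr rfl (fun b hb => Finset.sum_congr rfl (fun b' hb' => ?_))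
  rw [hF]
  congr 1
  rw [← Fin.sum_univ_eq_sum_range
    (fun u => f (blkT X b.1 b.2 b'.1 b'.2 (u % blockLen X.1 b.1 b.2 b'.1 b'.2))) D]
  refine Finset.sum_congr rfl (fun u _ => ?_)
  rw [stepT_valid X hmA hnA b b' (mem_pr.1 hb) (mem_pr.1 hb') u]

end P328Coin
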