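import Vale.Agent.Lib.P328.Coin.Kernel
import Vale.Agent.Lib.P328.RC.Main
import Vale.Agent.Lib.P328.JS2.Main

/-!
# P328, coin layer: the sampler driven by uniformly random seeds
-/

namespace P328Coin

open P335 P328RC Finset

variable {m n : ℕ} {r : Fin m → ℕ} {c : Fin n → ℕ} {A A' D : ℕ}

open Classical in
theorem kern_close (hm : (pr (Fin m)).Nonempty) (hn : (pr (Fin n)).Nonempty) (hmA : m ≤ A)
    (hnA : n ≤ A') (hD : 0 < D) (X : Tab r c) :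
    ∑ Y, |kern (stepT (A := A) (A' := A') (D := D)) X Y - lazy (pAcc m n A A') (hbMat r c) X Y|
      ≤ 2 * (((∑ i, r i : ℕ) : ℝ) + 1) / D := by
  apply sum_abs_le_of_test
  intro f hf
  simp only [sub_mul, Finset.sum_sub_distrib]
  rw [kern_mul, lazy_mul, hbMat_apply, sum_seeds hmA hnA]
  have hS : (Fintype.card (Seed A A' D) : ℝ) = (A : ℝ) ^ 2 * (A' : ℝ) ^ 2 * D := by
    simp only [Fintype.card_prod, Fintype.card_fin]
    push_cast
    ring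
  rw [hS]
  have hC : (0 : ℝ) < (pr (Fin m)).card := by exact_mod_cast hm.card_pos
  have hC' : (0 : ℝ) < (pr (Fin n)).card := by exact_mod_cast hn.card_pos
  have hA : (0 : ℝ) < (A : ℝ) ^ 2 := lt_of_lt_of_le hC (card_pr_le hmA)
  have hA' : (0 : ℝ) < (A' : ℝ) ^ 2 := lt_of_lt_of_le hC' (card_pr_le hnA)
  have hDR : (0 : ℝ) < D := by exact_mod_cast hD
  obtain ⟨G, hG⟩ : ∃ G : Fin m × Fin m → Fin n × Fin n → ℝ, ∀ b b', G b b'
      = ∑ u ∈ range D, f (blkT X b.1 b.2 b'.1 b'.2 (u % blockLen X.1 b.1 b.2 b'.1 b'.2)) :=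
    ⟨_, fun _ _ => rfl⟩
  simp only [← hG]
  obtain ⟨N1, hN1⟩ : ∃ N1 : ℝ, N1 = ((∑ i, r i : ℕ) : ℝ) + 1 := ⟨_, rfl⟩
  rw [← hN1]
  have hb : ∀ b ∈ pr (Fin m), ∀ b' ∈ pr (Fin n),
      G b b' / D - avg (RX b b') f X ≤ 2 * N1 / D := by
    intro b hb b' hb'
    rw [avg_block X b b' (ne_of_lt (mem_pr.1 hb)) (ne_of_lt (mem_pr.1 hb')), hG]
    have h1 := mod_uniform (fun v => f (blkT X b.1 b.2 b'.1 b'.2 v)) (fun v => hf _)
      (blockLen X.1 b.1 b.2 b'.1 b'.2) D (blockLen_pos _ _ _ _ _) hD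
    have h2 : ((blockLen X.1 b.1 b.2 b'.1 b'.2 : ℕ) : ℝ) ≤ N1 := by
      rw [hN1]
      exact_mod_cast blockLen_le X b.1 b.2 (ne_of_lt (mem_pr.1 hb'))
    have h3 : 2 * ((blockLen X.1 b.1 b.2 b'.1 b'.2 : ℕ) : ℝ) / D ≤ 2 * N1 / D := by
      gcongr
    exact (le_abs_self _).trans (h1.trans h3)
  have hsum : ∑ b ∈ pr (Fin m), ∑ b' ∈ pr (Fin n), (G b b' / D - avg (RX b b') f X)
      ≤ ((pr (Fin m)).card : ℝ) * ((pr (Fin n)).card : ℝ) * (2 * N1 / D) := by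
    refine (Finset.sum_le_sum fun b hb1 => Finset.sum_le_sum fun b' hb2 => hb b hb1 b' hb2).trans ?_
    simp only [Finset.sum_const, nsmul_eq_mul]
    exact le_of_eq (by ring)
  have hN0 : 0 ≤ 2 * N1 / D := by
    rw [hN1]
    positivity
  have hp1 : ((pr (Fin m)).card : ℝ) * ((pr (Fin n)).card : ℝ) ≤ (A : ℝ) ^ 2 * (A' : ℝ) ^ 2 :=
    mul_le_mul (card_pr_le hmA) (card_pr_le hnA) hC'.le hA.le
  have key : ((A : ℝ) ^ 2 * (A' : ℝ) ^ 2 * D * f X
        + ∑ b ∈ pr (Fin m), ∑ b' ∈ pr (Fin n), (G b b' - D * f X)) / ((A : ℝ) ^ 2 * (A' : ℝ) ^ 2 * D)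
      - ((1 - pAcc m n A A') * f X + pAcc m n A A' *
          ((∑ b ∈ pr (Fin m), ∑ b' ∈ pr (Fin n), avg (RX b b') f X)
            / (((pr (Fin m)).card : ℝ) * ((pr (Fin n)).card : ℝ))))
      = (∑ b ∈ pr (Fin m), ∑ b' ∈ pr (Fin n), (G b b' / D - avg (RX b b') f X))
          / ((A : ℝ) ^ 2 * (A' : ℝ) ^ 2) := by
    unfold pAcc
    simp only [Finset.sum_sub_distrib, Finset.sum_const, nsmul_eq_mul, ← Finset.sum_div]
    generalize ∑ b ∈ pr (Fin m), ∑ b' ∈ pr (Fin n), G b b' = S1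
    generalize ∑ b ∈ pr (Fin m), ∑ b' ∈ pr (Fin n), avg (RX b b') f X = S2
    generalize ((pr (Fin m)).card : ℝ) = C1 at hC ⊢
    generalize ((pr (Fin n)).card : ℝ) = C2 at hC' ⊢
    generalize (A : ℝ) ^ 2 = α1 at hA ⊢
    generalize (A' : ℝ) ^ 2 = α2 at hA' ⊢
    field_simp
    ring
  rw [key, div_le_iff₀ (mul_pos hA hA')]
  calc ∑ b ∈ pr (Fin m), ∑ b' ∈ pr (Fin n), (G b b' / D - avg (RX b b') f X)
      ≤ ((pr (Fin m)).card : ℝ) * ((pr (Fin n)).card : ℝ) * (2 * N1 / D) := hsum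
    _ ≤ (A : ℝ) ^ 2 * (A' : ℝ) ^ 2 * (2 * N1 / D) := mul_le_mul_of_nonneg_right hp1 hN0
    _ = 2 * N1 / D * ((A : ℝ) ^ 2 * (A' : ℝ) ^ 2) := by ring

theorem pr_nonempty (k : ℕ) (hk : 2 ≤ k) : (pr (Fin k)).Nonempty :=
  ⟨(⟨0, by omega⟩, ⟨1, by omega⟩), mem_pr.2 (by simp [Fin.lt_def])⟩

theorem hb_nonneg (X Y : Tab r c) : 0 ≤ hbMat r c X Y := by
  classical
  unfold hbMat
  apply div_nonneg
  · refine Finset.sum_nonneg fun b _ => Finset.sum_nonneg fun b' _ => ?_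
    split_ifs
    · positivity
    · exact le_refl _
  · positivity

open Classical in
/-- the sampler: the law of `run stepFun t σ X` under uniformly random seeds `σ` -/
theorem coin_sampler (hm : 2 ≤ m) (hn : 2 ≤ n) (hmA : m ≤ A) (hnA : n ≤ A') (hD : 0 < D)
    (j t : ℕ)
    (ht : 2 * A ^ 2 * A' ^ 2 * (m * n * (Nat.log 2 (∑ i, r i) + 1) + 2 * j) ≤ t) (X : Tab r c) :
    (1 / 2) * ∑ Y : Tab r c,
        |((univ.filter fun σ : Fin t → Seed A A' D => run stepFun t σ X.1 = Y.1).card : ℝ)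
          / ((A : ℝ) ^ 2 * (A' : ℝ) ^ 2 * D) ^ t - 1 / (Fintype.card (Tab r c) : ℝ)|
      ≤ (1 / 2) ^ (j + 1) + t * (((∑ i, r i : ℕ) : ℝ) + 1) / D := by
  have hι := pr_nonempty m hm
  have hκ := pr_nonempty n hn
  have : Nonempty (Tab r c) := ⟨X⟩
  have : Nonempty (Seed A A' D) :=
    ⟨((⟨0, by omega⟩, ⟨0, by omega⟩), (⟨0, by omega⟩, ⟨0, by omega⟩), ⟨0, hD⟩)⟩
  have hC : (0 : ℝ) < (pr (Fin m)).card := by exact_mod_cast hι.card_pos
  have hC' : (0 : ℝ) < (pr (Fin n)).card := by exact_mod_cast hκ.card_pos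
  have hA : (0 : ℝ) < (A : ℝ) ^ 2 := lt_of_lt_of_le hC (card_pr_le hmA)
  have hA' : (0 : ℝ) < (A' : ℝ) ^ 2 := lt_of_lt_of_le hC' (card_pr_le hnA)
  have hp0 : 0 ≤ pAcc m n A A' := by
    unfold pAcc
    positivity
  have hp1 : pAcc m n A A' ≤ 1 := by
    unfold pAcc
    rw [div_le_one (mul_pos hA hA')]
    exact mul_le_mul (card_pr_le hmA) (card_pr_le hnA) hC'.le hA.le
  have hMpos : 0 < 2 * ((pr (Fin m)).card * (pr (Fin n)).card) :=
    Nat.mul_pos (by norm_num) (Nat.mul_pos hι.card_pos hκ.card_pos)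
  have hM'pos : 0 < 2 * A ^ 2 * A' ^ 2 := by
    have h1 : 0 < A := by omega
    have h2 : 0 < A' := by omega
    positivity
  have hpM : ((2 * ((pr (Fin m)).card * (pr (Fin n)).card) : ℕ) : ℝ)
      ≤ pAcc m n A A' * ((2 * A ^ 2 * A' ^ 2 : ℕ) : ℝ) := by
    unfold pAcc
    push_cast
    apply le_of_eq
    generalize (A : ℝ) ^ 2 = α1 at hA ⊢
    generalize (A' : ℝ) ^ 2 = α2 at hA' ⊢
    field_simp
  have h := sampler_abs (stepT (r := r) (c := c) (A := A) (A' := A') (D := D)) (hbMat r c)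
    hb_nonneg hbMat_symm (hbMat_row hι hκ) (2 * ((pr (Fin m)).card * (pr (Fin n)).card)) hMpos
    (hbMat_contr (cst := 1) one_pos P328JS2.JS_one P328JS2.JS_one hι hκ _
      (by push_cast; simp))
    (pAcc m n A A') hp0 hp1 (2 * A ^ 2 * A' ^ 2) hM'pos hpM
    (2 * (((∑ i, r i : ℕ) : ℝ) + 1) / D) (kern_close hι hκ hmA hnA hD)
    (Fintype.card (Fin m) * Fintype.card (Fin n) * (Nat.log 2 (∑ i, r i) + 1)) j card_tab_le t
    (by simpa using ht) X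
  have hS : (Fintype.card (Seed A A' D) : ℝ) = (A : ℝ) ^ 2 * (A' : ℝ) ^ 2 * D := by
    simp only [Fintype.card_prod, Fintype.card_fin]
    push_cast
    ring
  rw [hS] at h
  have e : ∀ Y : Tab r c,
      (univ.filter fun σ : Fin t → Seed A A' D => run stepFun t σ X.1 = Y.1).card
        = (univ.filter fun σ : Fin t → Seed A A' D => run stepT t σ X = Y).card := by
    intro Y
    congr 1
    ext σ
    rw [Finset.mem_filter, Finset.mem_filter, ← run_stepT]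
    exact ⟨fun h => ⟨h.1, Subtype.ext h.2⟩, fun h => ⟨h.1, congrArg Subtype.val h.2⟩⟩
  simp only [e]
  refine h.trans (le_of_eq ?_)
  ring

/-- the output of the sampler always has the right margins -/
theorem run_mem (t : ℕ) (σ : Fin t → Seed A A' D) (X : Tab r c) :
    (∀ i, ∑ j, run stepFun t σ X.1 i j = r i) ∧ (∀ j, ∑ i, run stepFun t σ X.1 i j = c j) := by
  rw [← run_stepT]
  exact (run stepT t σ X).2

end P328Coin
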